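import Crest.Agent.H1Snaky.Game

set_option autoImplicit false
set_option linter.unusedSimpArgs false

namespace Crest.Agent.H1Snaky

open Crest.CombinatoricsR.PolyominoGame

def cell (i : ℕ) : C := (((i % 32 : ℕ) : ℤ), ((i / 32 : ℕ) : ℤ))

theorem cell_inj {i j : ℕ} (h : cell i = cell j) : i = j := by
  simp only [cell, Prod.mk.injEq, Nat.cast_inj] at h
  omega

/-- A card: with the stones `K` and no Breaker stone on `Z`, Maker wins within any `h`
with `H < 2 ^ h`. -/
def Valid (K Z H : ℕ) : Prop :=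
  ∀ s : ℕ, (∀ i, Z.testBit i = true → (i + s) % 32 < 27) →
    ∀ (h : ℕ) (M B : Finset C), H < 2 ^ h → (∀ i, K.testBit i = true → cell (i + s) ∈ M) →
      (∀ i, Z.testBit i = true → cell (i + s) ∉ B) → Win h M B

def Accu (K Z I H : ℕ) : Prop :=
  ∀ s : ℕ, (∀ i, Z.testBit i = true → (i + s) % 32 < 27) →
    ∀ (h : ℕ) (M B : Finset C) (y : C), H < 2 ^ h →
      (∀ i, K.testBit i = true → cell (i + s) ∈ M) →
      (∀ i, Z.testBit i = true → cell (i + s) ∉ B) →
      (∀ i, I.testBit i = true → cell (i + s) ≠ y) → Win h M (insert y B)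

theorem Valid.shift {K Z H : ℕ} (hv : Valid K Z H) (t : ℕ) :
    Valid (Nat.shiftLeft K t) (Nat.shiftLeft Z t) H := by
  intro s hs h M B hH hK hZ
  have key : ∀ (X i : ℕ), X.testBit i = true → (Nat.shiftLeft X t).testBit (i + t) = true := by
    intro X i hi
    show (X <<< t).testBit (i + t) = true
    rw [Nat.testBit_shiftLeft]
    simp [hi]
  refine hv (t + s) (fun i hi => ?_) h M B hH (fun i hi => ?_) (fun i hi => ?_)
  · rw [← add_assoc]; exact hs _ (key _ _ hi)
  · rw [← add_assoc]; exact hK _ (key _ _ hi)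
  · rw [← add_assoc]; exact hZ _ (key _ _ hi)

theorem Valid.accu {K Z H : ℕ} (hv : Valid K Z H) : Accu K Z Z H := by
  intro s hs h M B y hH hK hZ hI
  refine hv s hs h M _ hH hK fun i hi => ?_
  rw [Finset.mem_insert]
  rintro (h | h)
  · exact hI i hi h
  · exact hZ i hi h

theorem tb_lor (a b i : ℕ) : (Nat.lor a b).testBit i = (a.testBit i || b.testBit i) :=
  Nat.testBit_or a b i

theorem tb_land (a b i : ℕ) : (Nat.land a b).testBit i = (a.testBit i && b.testBit i) :=
  Nat.testBit_and a b i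

theorem tb_xor (a b i : ℕ) : (Nat.xor a b).testBit i = (a.testBit i ^^ b.testBit i) :=
  Nat.testBit_xor a b i

theorem Accu.add {K Z I H K' Z' H' : ℕ} (ha : Accu K Z I H) (hv : Valid K' Z' H') :
    Accu (Nat.lor K K') (Nat.lor Z Z') (Nat.land I Z') (Nat.lor H H') := by
  intro s hs h M B y hH hK hZ hI
  have h1 : H < 2 ^ h := lt_of_le_of_lt (Nat.left_le_or (n := H) (m := H')) hH
  have h2 : H' < 2 ^ h := lt_of_le_of_lt (Nat.right_le_or (n := H) (m := H')) hH
  by_cases hy : ∃ i, Z'.testBit i = true ∧ cell (i + s) = y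
  · obtain ⟨i0, hi0, hy⟩ := hy
    refine ha s (fun i hi => hs i (by simp [tb_lor, hi])) h M B y h1
      (fun i hi => hK i (by simp [tb_lor, hi])) (fun i hi => hZ i (by simp [tb_lor, hi]))
      (fun i hi he => ?_)
    have : i = i0 := by have := cell_inj (he.trans hy.symm); omega
    subst this
    exact hI i (by simp [tb_land, hi, hi0]) he
  · refine hv.accu s (fun i hi => hs i (by simp [tb_lor, hi])) h M B y h2
      (fun i hi => hK i (by simp [tb_lor, hi])) (fun i hi => hZ i (by simp [tb_lor, hi]))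
      (fun i hi he => hy ⟨i, hi, he⟩)

theorem Accu.fin {K Z I H : ℕ} (ha : Accu K Z I H) (x : ℕ) :
    Valid (Nat.xor (Nat.lor (Nat.lor K I) (Nat.shiftLeft 1 x)) (Nat.shiftLeft 1 x))
      (Nat.lor Z (Nat.shiftLeft 1 x)) (Nat.succ (Nat.shiftLeft H 1)) := by
  intro s hs h M B hH hK hZ
  have hb : ∀ i, (Nat.shiftLeft 1 x).testBit i = decide (x = i) := by
    intro i
    show (1 <<< x).testBit i = _
    rw [Nat.one_shiftLeft, Nat.testBit_two_pow]
  have hH' : H <<< 1 + 1 < 2 ^ h := hH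
  rw [Nat.shiftLeft_eq] at hH'
  obtain ⟨h', rfl⟩ : ∃ h', h = h' + 1 := by
    cases h with
    | zero => simp at hH'
    | succ h => exact ⟨h, rfl⟩
  have h1 : H < 2 ^ h' := by rw [pow_succ] at hH'; omega
  have hxB : cell (x + s) ∉ B := hZ x (by simp [tb_lor, hb])
  have main : ∀ x', cell (x + s) ∈ insert x' M → ∀ y, y ∉ insert x' M → y ∉ B →
      Win h' (insert x' M) (insert y B) := by
    intro x' hx' y hy _
    have hKI : ∀ i, (K.testBit i = true ∨ I.testBit i = true) → cell (i + s) ∈ insert x' M := by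
      intro i hi
      by_cases hix : x = i
      · subst hix; exact hx'
      · apply Finset.mem_insert_of_mem
        apply hK
        rw [tb_xor, tb_lor, tb_lor, hb]
        rcases hi with hi | hi <;> simp [hi, hix]
    refine ha s (fun i hi => hs i (by simp [tb_lor, hi])) h' _ B y h1
      (fun i hi => hKI i (Or.inl hi)) (fun i hi => hZ i (by simp [tb_lor, hi]))
      (fun i hi he => hy (he ▸ hKI i (Or.inr hi)))
  by_cases hxM : cell (x + s) ∈ M
  · obtain ⟨x', h2, h3⟩ := exists_fresh M B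
    exact ⟨x', h2, h3, main x' (Finset.mem_insert_of_mem hxM)⟩
  · exact ⟨_, hxM, hxB, main _ (Finset.mem_insert_self _ _)⟩

theorem valid_base (c : ℕ) (x0 y0 : ℕ) (e1 e2 : ℤ) (he1 : e1 = 1 ∨ e1 = -1)
    (he2 : e2 = 1 ∨ e2 = -1) (sw : Bool) (i0 : ℕ) (hi0 : c.testBit i0 = true) (hi0' : i0 % 32 = 0)
    (hc : ∀ p ∈ snaky, ∃ i, i < 140 ∧ c.testBit i = true ∧ i % 32 ≤ 4 ∧
      cell i = if sw then ((x0 : ℤ) + e1 * p.2, (y0 : ℤ) + e2 * p.1)
        else ((x0 : ℤ) + e1 * p.1, (y0 : ℤ) + e2 * p.2)) :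
    Valid c c 0 := by
  intro s hs h M B _ hK _
  apply win_of_copy
  have h0 := hs i0 hi0
  have hcell : ∀ i, i % 32 ≤ 4 →
      cell (i + s) = ((cell i).1 + ((s % 32 : ℕ) : ℤ), (cell i).2 + ((s / 32 : ℕ) : ℤ)) := by
    intro i hi
    simp only [cell, Prod.mk.injEq]
    omega
  refine ⟨((x0 : ℤ) + ((s % 32 : ℕ) : ℤ), (y0 : ℤ) + ((s / 32 : ℕ) : ℤ)), e1, e2, he1, he2, ?_⟩
  cases sw
  · left
    intro p hp
    obtain ⟨i, -, h1, h2, h3⟩ := hc p hp
    have := hK i h1
    rw [hcell i h2, h3] at this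
    simp only [Bool.false_eq_true, if_false] at this
    rw [Finset.mem_coe]
    convert this using 2 <;> ring
  · right
    intro p hp
    obtain ⟨i, -, h1, h2, h3⟩ := hc p hp
    have := hK i h1
    rw [hcell i h2, h3] at this
    simp only [if_true] at this
    rw [Finset.mem_coe]
    convert this using 2 <;> ring

/-! ### The checker -/

inductive T : Type
  | leaf : T
  | val (K Z H c : ℕ) : T
  | node (b : ℕ) (l r : T) : T

def T.All (P : ℕ → ℕ → ℕ → ℕ → Prop) : T → Prop
  | .leaf => True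
  | .val K Z H c => P K Z H c
  | .node _ l r => l.All P ∧ r.All P

theorem T.All.imp {P Q : ℕ → ℕ → ℕ → ℕ → Prop} (h : ∀ K Z H c, P K Z H c → Q K Z H c) (t : T)
    (ht : t.All P) : t.All Q := by
  induction t with
  | leaf => trivial
  | val K Z H c => exact h _ _ _ _ ht
  | node b l r ihl ihr => exact ⟨ihl ht.1, ihr ht.2⟩

def T.Ok (n : ℕ) (t : T) : Prop := t.All fun K Z H _ => H < n → Valid K Z H

noncomputable def force (n : ℕ) (f : ℕ → Bool) : Bool :=
  Nat.rec (f 0) (fun m _ => f (Nat.succ m)) n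

theorem force_eq (n : ℕ) (f : ℕ → Bool) : force n f = f n := by
  cases n <;> rfl

noncomputable def T.get (t : T) (i : ℕ) (k : ℕ → ℕ → ℕ → Bool) : Bool :=
  T.rec false (fun K Z H _ => k K Z H)
    (fun b _ _ ihl ihr => Nat.rec ihl (fun _ _ => ihr) (Nat.land i b)) t

theorem T.get_sound {n : ℕ} (t : T) (i : ℕ) (k : ℕ → ℕ → ℕ → Bool) (ht : t.Ok n)
    (h : t.get i k = true) : ∃ K Z H, (H < n → Valid K Z H) ∧ k K Z H = true := by
  induction t with
  | leaf => exact absurd h (by simp [T.get])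
  | val K Z H c => exact ⟨K, Z, H, ht, h⟩
  | node b l r ihl ihr =>
    have e : (T.node b l r).get i k =
        Nat.rec (l.get i k) (fun _ _ => r.get i k) (Nat.land i b) := rfl
    rw [e] at h
    cases hb : Nat.land i b with
    | zero => rw [hb] at h; exact ihl ht.1 h
    | succ n => rw [hb] at h; exact ihr ht.2 h

/-- Fetch the kid described by the low 25 bits of `c`, shifted. -/
noncomputable def kid (t : T) (c : ℕ) (k : ℕ → ℕ → ℕ → Bool) : Bool :=
  force (Nat.land (Nat.shiftRight c 10) 32767) fun id =>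
    t.get id fun K Z H =>
      k (Nat.shiftLeft K (Nat.land c 1023)) (Nat.shiftLeft Z (Nat.land c 1023)) H

theorem kid_sound {n : ℕ} {t : T} {c : ℕ} {k : ℕ → ℕ → ℕ → Bool} (ht : t.Ok n)
    (h : kid t c k = true) : ∃ K Z H, (H < n → Valid K Z H) ∧ k K Z H = true := by
  unfold kid at h
  rw [force_eq] at h
  obtain ⟨K, Z, H, h1, h2⟩ := T.get_sound _ _ _ ht h
  exact ⟨_, _, _, fun hH => (h1 hH).shift _, h2⟩

noncomputable def kids (t : T) (k : ℕ → ℕ → ℕ → ℕ → Bool) (n : ℕ) : ℕ → ℕ → ℕ → ℕ → ℕ → Bool :=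
  Nat.rec (fun _ K Z I H => k K Z I H)
    (fun _ ih c K Z I H => kid t c fun K' Z' H' =>
      ih (Nat.shiftRight c 25) (Nat.lor K K') (Nat.lor Z Z') (Nat.land I Z') (Nat.lor H H')) n

theorem kids_sound {n : ℕ} {t : T} {k : ℕ → ℕ → ℕ → ℕ → Bool} (ht : t.Ok n) (m : ℕ) :
    ∀ c K Z I H, (H < n → Accu K Z I H) → kids t k m c K Z I H = true →
      ∃ K Z I H, (H < n → Accu K Z I H) ∧ k K Z I H = true := by
  induction m with
  | zero => intro c K Z I H ha h; exact ⟨K, Z, I, H, ha, h⟩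
  | succ m ih =>
    intro c K Z I H ha h
    have e : kids t k (m + 1) c K Z I H = kid t c fun K' Z' H' =>
      kids t k m (Nat.shiftRight c 25) (Nat.lor K K') (Nat.lor Z Z') (Nat.land I Z')
        (Nat.lor H H') := rfl
    rw [e] at h
    obtain ⟨K', Z', H', h1, h2⟩ := kid_sound ht h
    refine ih _ _ _ _ _ (fun hH => (ha ?_).add (h1 ?_)) h2
    · exact lt_of_le_of_lt (Nat.left_le_or (n := H) (m := H')) hH
    · exact lt_of_le_of_lt (Nat.right_le_or (n := H) (m := H')) hH

/-- Code layout: 10 bits move, 8 bits (number of kids - 1), then 25 bits per kid. -/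
noncomputable def allKids (t : T) (c : ℕ) (k : ℕ → ℕ → ℕ → ℕ → Bool) : Bool :=
  kid t (Nat.shiftRight c 18) fun K Z H =>
    kids t k (Nat.land (Nat.shiftRight c 10) 255) (Nat.shiftRight c 43) K Z Z H

theorem allKids_sound {n : ℕ} {t : T} {c : ℕ} {k : ℕ → ℕ → ℕ → ℕ → Bool} (ht : t.Ok n)
    (h : allKids t c k = true) : ∃ K Z I H, (H < n → Accu K Z I H) ∧ k K Z I H = true := by
  unfold allKids at h
  obtain ⟨K', Z', H', h1, h2⟩ := kid_sound ht h
  exact kids_sound ht _ _ _ _ _ _ (fun hH => (h1 hH).accu) h2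

noncomputable def good (t : T) (K Z H c : ℕ) : Bool :=
  allKids t c fun K1 Z1 I H1 =>
    Nat.beq (Nat.xor (Nat.lor (Nat.lor K1 I) (Nat.shiftLeft 1 (Nat.land c 1023)))
        (Nat.shiftLeft 1 (Nat.land c 1023))) K &&
      Nat.beq (Nat.lor Z1 (Nat.shiftLeft 1 (Nat.land c 1023))) Z &&
        Nat.beq (Nat.succ (Nat.shiftLeft H1 1)) H

theorem good_sound {n : ℕ} {t : T} {K Z H c : ℕ} (ht : t.Ok n) (h : good t K Z H c = true)
    (hH : H < n + 1) : Valid K Z H := by
  obtain ⟨K1, Z1, I, H1, h1, h2⟩ := allKids_sound ht h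
  simp only [Bool.and_eq_true] at h2
  obtain ⟨⟨a1, a2⟩, a3⟩ := h2
  have b3 := Nat.eq_of_beq_eq_true a3
  rw [← Nat.eq_of_beq_eq_true a1, ← Nat.eq_of_beq_eq_true a2, ← b3]
  refine (h1 ?_).fin _
  have : H1 <<< 1 + 1 = H := b3
  rw [Nat.shiftLeft_eq] at this
  omega

def Fine (t : T) (K Z H c : ℕ) : Prop := Valid K Z H ∨ good t K Z H c = true

noncomputable def allGood (t s : T) : Bool :=
  T.rec true (fun K Z H c => good t K Z H c) (fun _ _ _ ihl ihr => ihl && ihr) s

theorem allGood_sound (t s : T) (h : allGood t s = true) : s.All (Fine t) := by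
  induction s with
  | leaf => trivial
  | val K Z H c => exact Or.inr h
  | node b l r ihl ihr =>
    have e : allGood t (T.node b l r) = (allGood t l && allGood t r) := rfl
    rw [e, Bool.and_eq_true] at h
    exact ⟨ihl h.1, ihr h.2⟩

theorem ok_of_fine {t : T} (h : t.All (Fine t)) (n : ℕ) : t.Ok n := by
  induction n with
  | zero => exact T.All.imp (fun _ _ _ _ _ h => absurd h (Nat.not_lt_zero _)) t h
  | succ n ih =>
    refine T.All.imp (fun K Z H c h1 h2 => ?_) t h
    rcases h1 with h1 | h1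
    · exact h1
    · exact good_sound ih h1 h2

def mask (p : ℕ → Bool) : ℕ → ℕ
  | 0 => 0
  | n + 1 => if p n then Nat.lor (mask p n) (2 ^ n) else mask p n

theorem mask_spec (p : ℕ → Bool) (n i : ℕ) (h : (mask p n).testBit i = true) : p i = true := by
  induction n with
  | zero => simp [mask] at h
  | succ n ih =>
    unfold mask at h
    split_ifs at h with hp
    · rw [tb_lor, Nat.testBit_two_pow] at h
      simp only [Bool.or_eq_true, decide_eq_true_eq] at h
      rcases h with h | h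
      · exact ih h
      · exact h ▸ hp
    · exact ih h

theorem sub_of_land {a m i : ℕ} (h : Nat.beq (Nat.land a m) a = true)
    (hi : a.testBit i = true) : m.testBit i = true := by
  have := Nat.eq_of_beq_eq_true h
  rw [← this, tb_land] at hi
  simp only [Bool.and_eq_true] at hi
  exact hi.2

def safeP (i : ℕ) : Bool := decide (i % 32 < 27)
def nonsecP (i : ℕ) : Bool := decide (i / 32 < 9 ∨ i % 32 < i / 32 ∨ i = 297)

noncomputable def final (c : ℕ) (t : T) : Bool :=
  allKids t c fun K Z I H =>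
    Nat.beq (Nat.land K (Nat.shiftLeft 1 297)) K && Nat.beq (Nat.land Z (mask safeP 640)) Z &&
      Nat.beq (Nat.land I (mask nonsecP 640)) I && Nat.ble H 1048575

theorem final_sound {c : ℕ} {t : T} (ht : t.All (Fine t)) (h : final c t = true) :
    Win 21 ∅ ∅ := by
  obtain ⟨K, Z, I, H, h1, h2⟩ := allKids_sound (ok_of_fine ht 1048576) h
  simp only [Bool.and_eq_true] at h2
  obtain ⟨⟨⟨a1, a2⟩, a3⟩, a4⟩ := h2
  have a5 := Nat.le_of_ble_eq_true a4
  apply win_all
  rintro ⟨u, v⟩ hv huv hne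
  have := h1 (by omega) 0 (fun i hi => ?_) 20 {(9, 9)} ∅ (u, v) ?_ (fun i hi => ?_) (by simp)
    (fun i hi he => ?_)
  · simpa using this
  · have := mask_spec _ _ _ (sub_of_land a2 hi)
    simpa [safeP] using this
  · omega
  · have h3 : (1 <<< 297).testBit i = true := sub_of_land a1 hi
    rw [Nat.one_shiftLeft, Nat.testBit_two_pow] at h3
    simp only [decide_eq_true_eq] at h3
    subst h3
    simp [cell]
  · have := mask_spec _ _ _ (sub_of_land a3 hi)
    simp only [nonsecP, decide_eq_true_eq] at this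
    simp only [cell, add_zero, Prod.mk.injEq] at he
    simp only [ne_eq, Prod.mk.injEq] at hne hv huv
    omega

end Crest.Agent.H1Snaky
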