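import Crest.Agent.H1Snaky.Table

set_option autoImplicit false
set_option maxRecDepth 100000
set_option Elab.async false

namespace Crest.Agent.H1Snaky

theorem g1 : s1.All (Fine tbl) := allGood_sound tbl s1 (by decide +kernel)

theorem g2 : s2.All (Fine tbl) := allGood_sound tbl s2 (by decide +kernel)

theorem g3 : s3.All (Fine tbl) := allGood_sound tbl s3 (by decide +kernel)

theorem g4 : s4.All (Fine tbl) := allGood_sound tbl s4 (by decide +kernel)

theorem g5 : s5.All (Fine tbl) := allGood_sound tbl s5 (by decide +kernel)

theorem g6 : s6.All (Fine tbl) := allGood_sound tbl s6 (by decide +kernel)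

theorem g7 : s7.All (Fine tbl) := allGood_sound tbl s7 (by decide +kernel)

theorem g8 : s8.All (Fine tbl) := allGood_sound tbl s8 (by decide +kernel)

theorem g9 : s9.All (Fine tbl) := allGood_sound tbl s9 (by decide +kernel)

theorem g10 : s10.All (Fine tbl) := allGood_sound tbl s10 (by decide +kernel)

theorem g11 : s11.All (Fine tbl) := allGood_sound tbl s11 (by decide +kernel)

theorem g12 : s12.All (Fine tbl) := allGood_sound tbl s12 (by decide +kernel)

theorem g13 : s13.All (Fine tbl) := allGood_sound tbl s13 (by decide +kernel)

theorem g14 : s14.All (Fine tbl) := allGood_sound tbl s14 (by decide +kernel)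

theorem g15 : s15.All (Fine tbl) := allGood_sound tbl s15 (by decide +kernel)

theorem g16 : s16.All (Fine tbl) := allGood_sound tbl s16 (by decide +kernel)

end Crest.Agent.H1Snaky
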