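import Crest.Agent.H1Snaky.Table

set_option autoImplicit false
set_option maxRecDepth 100000
set_option Elab.async false

namespace Crest.Agent.H1Snaky

theorem g17 : s17.All (Fine tbl) := allGood_sound tbl s17 (by decide +kernel)

theorem g18 : s18.All (Fine tbl) := allGood_sound tbl s18 (by decide +kernel)

theorem g19 : s19.All (Fine tbl) := allGood_sound tbl s19 (by decide +kernel)

theorem g20 : s20.All (Fine tbl) := allGood_sound tbl s20 (by decide +kernel)

theorem g21 : s21.All (Fine tbl) := allGood_sound tbl s21 (by decide +kernel)

theorem g22 : s22.All (Fine tbl) := allGood_sound tbl s22 (by decide +kernel)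

theorem g23 : s23.All (Fine tbl) := allGood_sound tbl s23 (by decide +kernel)

theorem g24 : s24.All (Fine tbl) := allGood_sound tbl s24 (by decide +kernel)

theorem g25 : s25.All (Fine tbl) := allGood_sound tbl s25 (by decide +kernel)

theorem g26 : s26.All (Fine tbl) := allGood_sound tbl s26 (by decide +kernel)

theorem g27 : s27.All (Fine tbl) := allGood_sound tbl s27 (by decide +kernel)

theorem g28 : s28.All (Fine tbl) := allGood_sound tbl s28 (by decide +kernel)

theorem g29 : s29.All (Fine tbl) := allGood_sound tbl s29 (by decide +kernel)

end Crest.Agent.H1Snaky
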