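import Crest.Agent.H1Snaky.Table

set_option autoImplicit false
set_option maxRecDepth 100000
set_option Elab.async false

namespace Crest.Agent.H1Snaky

theorem g30 : s30.All (Fine tbl) := allGood_sound tbl s30 (by decide +kernel)

theorem g31 : s31.All (Fine tbl) := allGood_sound tbl s31 (by decide +kernel)

theorem g32 : s32.All (Fine tbl) := allGood_sound tbl s32 (by decide +kernel)

theorem g33 : s33.All (Fine tbl) := allGood_sound tbl s33 (by decide +kernel)

theorem g34 : s34.All (Fine tbl) := allGood_sound tbl s34 (by decide +kernel)

theorem g35 : s35.All (Fine tbl) := allGood_sound tbl s35 (by decide +kernel)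

theorem g36 : s36.All (Fine tbl) := allGood_sound tbl s36 (by decide +kernel)

theorem g37 : s37.All (Fine tbl) := allGood_sound tbl s37 (by decide +kernel)

theorem g38 : s38.All (Fine tbl) := allGood_sound tbl s38 (by decide +kernel)

theorem g39 : s39.All (Fine tbl) := allGood_sound tbl s39 (by decide +kernel)

end Crest.Agent.H1Snaky
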