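import Crest.Prelude.Def_PolyominoGame

set_option autoImplicit false

namespace Crest.Agent.H1Snaky

open Crest.CombinatoricsR.PolyominoGame

abbrev C := ℤ × ℤ

/-- Maker, to move, can make exactly `h` legal claims after which he owns a copy. -/
def Win : ℕ → Finset C → Finset C → Prop
  | 0, M, _ => ContainsCopy (M : Set C)
  | h + 1, M, B => ∃ x, x ∉ M ∧ x ∉ B ∧
      ∀ y, y ∉ insert x M → y ∉ B → Win h (insert x M) (insert y B)

theorem containsCopy_mono {X Y : Set C} (h : X ⊆ Y) (hX : ContainsCopy X) : ContainsCopy Y := by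
  obtain ⟨t, e1, e2, h1, h2, h3⟩ := hX
  refine ⟨t, e1, e2, h1, h2, ?_⟩
  rcases h3 with h3 | h3
  · exact Or.inl fun p hp => h (h3 p hp)
  · exact Or.inr fun p hp => h (h3 p hp)

theorem exists_fresh (M B : Finset C) : ∃ x, x ∉ M ∧ x ∉ B := by
  obtain ⟨x, hx⟩ := Infinite.exists_notMem_finset (M ∪ B)
  exact ⟨x, fun h => hx (Finset.mem_union_left _ h), fun h => hx (Finset.mem_union_right _ h)⟩

theorem win_of_copy (h : ℕ) : ∀ M B : Finset C, ContainsCopy (M : Set C) → Win h M B := by
  induction h with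
  | zero => intro M B hM; exact hM
  | succ h ih =>
    intro M B hM
    obtain ⟨x, hx, hx'⟩ := exists_fresh M B
    refine ⟨x, hx, hx', fun y _ _ => ih _ _ (containsCopy_mono ?_ hM)⟩
    intro z hz
    simp only [Finset.coe_insert, Set.mem_insert_iff]
    exact Or.inr hz

theorem win_symm (g : C → C) (hg : ∀ p, g (g p) = p)
    (hc : ∀ X : Set C, ContainsCopy X → ContainsCopy (g '' X)) (h : ℕ) :
    ∀ M B : Finset C, Win h M B → Win h (M.image g) (B.image g) := by
  have hinj : Function.Injective g := fun a b hab => by rw [← hg a, hab, hg b]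
  have hmem : ∀ (S : Finset C) (p : C), g p ∈ S.image g ↔ p ∈ S := fun S p =>
    hinj.mem_finset_image
  induction h with
  | zero =>
    intro M B hM
    have := hc _ hM
    simpa [Win, Finset.coe_image] using this
  | succ h ih =>
    rintro M B ⟨x, hx, hx', hw⟩
    refine ⟨g x, by rwa [hmem], by rwa [hmem], fun y hy hy' => ?_⟩
    have h1 : g y ∉ insert x M := by
      intro hh
      apply hy
      rw [← Finset.image_insert, ← hg y, hmem]
      exact hh
    have h2 : g y ∉ B := by
      intro hh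
      apply hy'
      rw [← hg y, hmem]
      exact hh
    have := ih _ _ (hw (g y) h1 h2)
    rwa [Finset.image_insert, Finset.image_insert, hg] at this

/-! ### From `Win` to a policy -/

open Classical in
noncomputable def mv (h : ℕ) (S : Finset C × Finset C) : C :=
  if hW : Win (h + 1) S.1 S.2 then Classical.choose hW else (0, 0)

theorem mv_spec {h : ℕ} {S : Finset C × Finset C} (hW : Win (h + 1) S.1 S.2) :
    mv h S ∉ S.1 ∧ mv h S ∉ S.2 ∧ ∀ y, y ∉ insert (mv h S) S.1 → y ∉ S.2 →
      Win h (insert (mv h S) S.1) (insert y S.2) := by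
  unfold mv
  rw [dif_pos hW]
  exact Classical.choose_spec hW

/-- State after the replies, given in reverse order. -/
noncomputable def st : List C → Finset C × Finset C
  | [] => (∅, ∅)
  | y :: l => (insert (mv (20 - l.length) (st l)) (st l).1, insert y (st l).2)

noncomputable def pol (l : List C) : C := mv (20 - l.length) (st l.reverse)

theorem policy (hW : Win 21 ∅ ∅) :
    ∃ σ : List (ℤ × ℤ) → ℤ × ℤ, ∀ b : ℕ → ℤ × ℤ,
      (∀ k : ℕ, k < 20 →
        (∀ j : ℕ, j ≤ k → b k ≠ makerClaim σ b j) ∧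
        (∀ j : ℕ, j < k → b k ≠ b j)) →
      (∀ k : ℕ, k ≤ 20 →
        (∀ j : ℕ, j < k → makerClaim σ b k ≠ makerClaim σ b j) ∧
        (∀ j : ℕ, j < k → makerClaim σ b k ≠ b j)) ∧
      ContainsCopy {c | ∃ j : ℕ, j ≤ 20 ∧ c = makerClaim σ b j} := by
  refine ⟨pol, fun b hb => ?_⟩
  set S : ℕ → Finset C × Finset C := fun k => st ((List.range k).map b).reverse with hS
  have hclaim : ∀ k, makerClaim pol b k = mv (20 - k) (S k) := by
    intro k
    simp [makerClaim, pol, hS]
  have hstep : ∀ k, S (k + 1) = (insert (mv (20 - k) (S k)) (S k).1, insert (b k) (S k).2) := by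
    intro k
    simp [hS, List.range_succ, st]
  have hM : ∀ k c, c ∈ (S k).1 ↔ ∃ j, j < k ∧ c = makerClaim pol b j := by
    intro k
    induction k with
    | zero => intro c; simp [hS, st]
    | succ k ih =>
      intro c
      rw [hstep, Finset.mem_insert, ih, ← hclaim]
      constructor
      · rintro (h | ⟨j, hj, h⟩)
        · exact ⟨k, Nat.lt_succ_self k, h⟩
        · exact ⟨j, Nat.lt_succ_of_lt hj, h⟩
      · rintro ⟨j, hj, h⟩
        rcases Nat.lt_succ_iff_lt_or_eq.1 hj with hj | rfl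
        · exact Or.inr ⟨j, hj, h⟩
        · exact Or.inl h
  have hB : ∀ k c, c ∈ (S k).2 ↔ ∃ j, j < k ∧ c = b j := by
    intro k
    induction k with
    | zero => intro c; simp [hS, st]
    | succ k ih =>
      intro c
      rw [hstep, Finset.mem_insert, ih]
      constructor
      · rintro (h | ⟨j, hj, h⟩)
        · exact ⟨k, Nat.lt_succ_self k, h⟩
        · exact ⟨j, Nat.lt_succ_of_lt hj, h⟩
      · rintro ⟨j, hj, h⟩
        rcases Nat.lt_succ_iff_lt_or_eq.1 hj with hj | rfl
        · exact Or.inr ⟨j, hj, h⟩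
        · exact Or.inl h
  have hwin : ∀ k, k ≤ 20 → Win ((20 - k) + 1) (S k).1 (S k).2 := by
    intro k
    induction k with
    | zero => intro _; simpa [hS, st] using hW
    | succ k ih =>
      intro hk
      have hk' : k < 20 := hk
      obtain ⟨-, -, h3⟩ := mv_spec (ih hk'.le)
      have e : 20 - k = 20 - (k + 1) + 1 := by omega
      rw [hstep, ← e]
      apply h3
      · rw [Finset.mem_insert, hM, ← hclaim]
        rintro (h | ⟨j, hj, h⟩)
        · exact (hb k hk').1 k le_rfl h
        · exact (hb k hk').1 j hj.le h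
      · rw [hB]
        rintro ⟨j, hj, h⟩
        exact (hb k hk').2 j hj h
  refine ⟨fun k hk => ?_, ?_⟩
  · obtain ⟨h1, h2, -⟩ := mv_spec (hwin k hk)
    rw [← hclaim] at h1 h2
    exact ⟨fun j hj h => h1 ((hM k _).2 ⟨j, hj, h⟩), fun j hj h => h2 ((hB k _).2 ⟨j, hj, h⟩)⟩
  · obtain ⟨-, -, h3⟩ := mv_spec (hwin 20 le_rfl)
    obtain ⟨y, hy, hy'⟩ := exists_fresh (insert (mv (20 - 20) (S 20)) (S 20).1) (S 20).2
    have h4 : ContainsCopy _ := h3 y hy hy'
    refine containsCopy_mono ?_ h4
    intro c hc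
    rw [Finset.mem_coe, Finset.mem_insert, hM, ← hclaim] at hc
    rcases hc with h | ⟨j, hj, h⟩
    · exact ⟨20, le_rfl, h⟩
    · exact ⟨j, hj.le, h⟩

/-! ### Reduction to a sector of first replies -/

theorem win_all (hs : ∀ y : C, 9 ≤ y.2 → y.2 ≤ y.1 → y ≠ (9, 9) → Win 20 {(9, 9)} {y}) :
    Win 21 ∅ ∅ := by
  have k1 : ∀ y : C, Win 20 {(9, 9)} {y} → Win 20 {(9, 9)} {(18 - y.1, y.2)} := by
    intro y hy
    have := win_symm (fun p => (18 - p.1, p.2)) (by intro p; simp) (by
      rintro X ⟨t, e1, e2, h1, h2, h3⟩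
      refine ⟨(18 - t.1, t.2), -e1, e2, by omega, h2, ?_⟩
      rcases h3 with h3 | h3
      · exact Or.inl fun p hp => ⟨_, h3 p hp, by simp; ring⟩
      · exact Or.inr fun p hp => ⟨_, h3 p hp, by simp; ring⟩) 20 _ _ hy
    simpa using this
  have k2 : ∀ y : C, Win 20 {(9, 9)} {y} → Win 20 {(9, 9)} {(y.1, 18 - y.2)} := by
    intro y hy
    have := win_symm (fun p => (p.1, 18 - p.2)) (by intro p; simp) (by
      rintro X ⟨t, e1, e2, h1, h2, h3⟩
      refine ⟨(t.1, 18 - t.2), e1, -e2, h1, by omega, ?_⟩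
      rcases h3 with h3 | h3
      · exact Or.inl fun p hp => ⟨_, h3 p hp, by simp; ring⟩
      · exact Or.inr fun p hp => ⟨_, h3 p hp, by simp; ring⟩) 20 _ _ hy
    simpa using this
  have k3 : ∀ y : C, Win 20 {(9, 9)} {y} → Win 20 {(9, 9)} {(y.2, y.1)} := by
    intro y hy
    have := win_symm (fun p => (p.2, p.1)) (by intro p; simp) (by
      rintro X ⟨t, e1, e2, h1, h2, h3⟩
      refine ⟨(t.2, t.1), e2, e1, h2, h1, ?_⟩
      rcases h3 with h3 | h3
      · exact Or.inr fun p hp => ⟨_, h3 p hp, by simp⟩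
      · exact Or.inl fun p hp => ⟨_, h3 p hp, by simp⟩) 20 _ _ hy
    simpa using this
  have s1 : ∀ y : C, 9 ≤ y.1 → 9 ≤ y.2 → y ≠ (9, 9) → Win 20 {(9, 9)} {y} := by
    rintro ⟨u, v⟩ hu hv hne
    rcases le_total v u with h | h
    · exact hs _ hv h hne
    · exact k3 (v, u) (hs _ hu h (by
        intro hh; apply hne; simp only [Prod.mk.injEq] at hh ⊢; exact ⟨hh.2, hh.1⟩))
  have s2 : ∀ y : C, 9 ≤ y.1 → y ≠ (9, 9) → Win 20 {(9, 9)} {y} := by
    rintro ⟨u, v⟩ hu hne
    rcases le_total 9 v with h | h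
    · exact s1 _ hu h hne
    · have := k2 (u, 18 - v) (s1 _ hu (by simp only; omega) (by
        intro hh; apply hne; simp only [Prod.mk.injEq] at hh ⊢; omega))
      simpa using this
  have s3 : ∀ y : C, y ≠ (9, 9) → Win 20 {(9, 9)} {y} := by
    rintro ⟨u, v⟩ hne
    rcases le_total 9 u with h | h
    · exact s2 _ h hne
    · have := k1 (18 - u, v) (s2 _ (by simp only; omega) (by
        intro hh; apply hne; simp only [Prod.mk.injEq] at hh ⊢; omega))
      simpa using this
  refine ⟨(9, 9), by simp, by simp, fun y hy _ => ?_⟩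
  have := s3 y (by simpa using hy)
  simpa using this

end Crest.Agent.H1Snaky
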