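import Crest.Agent.H1Snaky.Chk1
import Crest.Agent.H1Snaky.Chk2
import Crest.Agent.H1Snaky.Chk3

set_option autoImplicit false
set_option maxRecDepth 100000
set_option Elab.async false

namespace Crest.Agent.H1Snaky

theorem b0 : Valid 103079215119 103079215119 0 :=
  valid_base _ 0 0 (1) (1) (by simp) (by simp) false 0
    (by decide +kernel) (by decide +kernel) (by decide +kernel)

theorem b1 : Valid 64424509464 64424509464 0 :=
  valid_base _ 0 1 (1) (-1) (by simp) (by simp) false 32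
    (by decide +kernel) (by decide +kernel) (by decide +kernel)

theorem b2 : Valid 12884901918 12884901918 0 :=
  valid_base _ 4 0 (-1) (1) (by simp) (by simp) false 32
    (by decide +kernel) (by decide +kernel) (by decide +kernel)

theorem b3 : Valid 128849018883 128849018883 0 :=
  valid_base _ 4 1 (-1) (-1) (by simp) (by simp) false 0
    (by decide +kernel) (by decide +kernel) (by decide +kernel)

theorem b4 : Valid 680564734079561414487988971722172792833 680564734079561414487988971722172792833 0 :=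
  valid_base _ 0 0 (1) (1) (by simp) (by simp) true 0
    (by decide +kernel) (by decide +kernel) (by decide +kernel)

theorem b5 : Valid 340282367000166625996085689111906615298 340282367000166625996085689111906615298 0 :=
  valid_base _ 0 4 (1) (-1) (by simp) (by simp) true 32
    (by decide +kernel) (by decide +kernel) (by decide +kernel)

theorem b6 : Valid 340282367158622951043061108368409100290 340282367158622951043061108368409100290 0 :=
  valid_base _ 1 0 (-1) (1) (by simp) (by simp) true 96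
    (by decide +kernel) (by decide +kernel) (by decide +kernel)

theorem b7 : Valid 680564734000333251992171378210928328705 680564734000333251992171378210928328705 0 :=
  valid_base _ 1 4 (-1) (-1) (by simp) (by simp) true 0
    (by decide +kernel) (by decide +kernel) (by decide +kernel)

theorem g0 : s0.All (Fine tbl) :=
  ⟨⟨⟨Or.inl b0, Or.inl b1⟩, ⟨Or.inl b2, Or.inl b3⟩⟩, ⟨⟨Or.inl b4, Or.inl b5⟩, ⟨Or.inl b6, Or.inl b7⟩⟩⟩

theorem tbl_fine : tbl.All (Fine tbl) :=
  ⟨⟨⟨⟨⟨⟨g0, g1⟩, ⟨g2, g3⟩⟩, ⟨⟨g4, g5⟩, ⟨g6, g7⟩⟩⟩, ⟨⟨⟨g8, g9⟩, ⟨g10, g11⟩⟩, ⟨⟨g12, g13⟩, ⟨g14, g15⟩⟩⟩⟩, ⟨⟨⟨⟨g16, g17⟩, ⟨g18, g19⟩⟩, ⟨⟨g20, g21⟩, ⟨g22, g23⟩⟩⟩, ⟨⟨⟨g24, g25⟩, ⟨g26, g27⟩⟩, ⟨⟨g28, g29⟩, ⟨g30, g31⟩⟩⟩⟩⟩, ⟨⟨⟨g32, g33⟩, ⟨g34, g35⟩⟩, ⟨⟨g36, g37⟩, ⟨g38, g39⟩⟩⟩⟩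

theorem win21 : Win 21 ∅ ∅ := final_sound (c := 181702235980770051072) tbl_fine (by decide +kernel)

end Crest.Agent.H1Snaky
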