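import Crest.Agent.H1Snaky.Data1
import Crest.Agent.H1Snaky.Data2
import Crest.Agent.H1Snaky.Data3

set_option autoImplicit false
set_option maxRecDepth 100000
set_option Elab.async false

namespace Crest.Agent.H1Snaky

noncomputable def tbl : T := (.node (nat_lit 16384) (.node (nat_lit 8192) (.node (nat_lit 4096) (.node (nat_lit 2048) (.node (nat_lit 1024) (.node (nat_lit 512) s0 s1) (.node (nat_lit 512) s2 s3)) (.node (nat_lit 1024) (.node (nat_lit 512) s4 s5) (.node (nat_lit 512) s6 s7))) (.node (nat_lit 2048) (.node (nat_lit 1024) (.node (nat_lit 512) s8 s9) (.node (nat_lit 512) s10 s11)) (.node (nat_lit 1024) (.node (nat_lit 512) s12 s13) (.node (nat_lit 512) s14 s15)))) (.node (nat_lit 4096) (.node (nat_lit 2048) (.node (nat_lit 1024) (.node (nat_lit 512) s16 s17) (.node (nat_lit 512) s18 s19)) (.node (nat_lit 1024) (.node (nat_lit 512) s20 s21) (.node (nat_lit 512) s22 s23))) (.node (nat_lit 2048) (.node (nat_lit 1024) (.node (nat_lit 512) s24 s25) (.node (nat_lit 512) s26 s27)) (.node (nat_lit 1024) (.node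 (nat_lit 512) s28 s29) (.node (nat_lit 512) s30 s31))))) (.node (nat_lit 2048) (.node (nat_lit 1024) (.node (nat_lit 512) s32 s33) (.node (nat_lit 512) s34 s35)) (.node (nat_lit 1024) (.node (nat_lit 512) s36 s37) (.node (nat_lit 512) s38 s39))))

end Crest.Agent.H1Snaky
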